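import Vale.Agent.P062.Step
import Vale.Agent.P062.PB.N0D0

namespace Vale.Agent.P062.PB

open Vale.Agent.P062

noncomputable def l0 : T := .cons 271 PB.N0D0.top0 (.cons 294 PB.N0D0.top1 (.cons 294 PB.N0D0.top2 (.cons 269 PB.N0D0.top3 (.cons 294 PB.N0D0.top4 (.cons 269 PB.N0D0.top5 (.cons 269 PB.N0D0.top6 (.cons 269 PB.N0D0.top7 (.cons 247 PB.N0D0.top8 (.cons 246 PB.N0D0.top9 (.cons 269 PB.N0D0.top10 (.cons 271 PB.N0D0.top11 (.cons 269 PB.N0D0.top12 (.cons 271 PB.N0D0.top13 (.cons 294 PB.N0D0.top14 .nil))))))))))))))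

theorem n0 : MW ((((((1 <<< 275) ||| (1 <<< 272)) ||| (1 <<< 248)) ||| (1 <<< 320)) ||| (1 <<< 321)) ||| (1 <<< 318)) ((((((1 <<< 276) ||| (1 <<< 273)) ||| (1 <<< 224)) ||| (1 <<< 296)) ||| (1 <<< 322)) ||| (1 <<< 319)) :=
  step l0 ((((((1 <<< 275) ||| (1 <<< 272)) ||| (1 <<< 248)) ||| (1 <<< 320)) ||| (1 <<< 321)) ||| (1 <<< 318)) ((((((1 <<< 276) ||| (1 <<< 273)) ||| (1 <<< 224)) ||| (1 <<< 296)) ||| (1 <<< 322)) ||| (1 <<< 319)) 270 0 7452936804141812287998091879891098144755143389892954210226391351811163744138443934798567642207167724925432082295610470733231496888320 [] (by decide +kernel) (by decide +kernel) (by decide +kernel) (by decide +kernel) (by decide +kernel) (by decide +kernel) trivial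

end Vale.Agent.P062.PB
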