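import Vale.Agent.P062.Step
import Vale.Agent.P062.PB.N1D0
import Vale.Agent.P062.PB.N0

namespace Vale.Agent.P062.PB

open Vale.Agent.P062

noncomputable def l1 : T := .cons 319 PB.N1D0.top0 (.cons 319 PB.N1D0.top1 (.cons 319 PB.N1D0.top2 (.cons 319 PB.N1D0.top3 (.cons 319 PB.N1D0.top4 (.cons 319 PB.N1D0.top5 (.cons 319 PB.N1D0.top6 (.cons 319 PB.N1D0.top7 (.cons 294 PB.N1D0.top8 (.cons 319 PB.N1D0.top9 (.cons 319 PB.N1D0.top10 (.cons 319 PB.N1D0.top11 (.cons 319 PB.N1D0.top12 (.cons 319 PB.N1D0.top13 (.cons 319 PB.N1D0.top14 .nil))))))))))))))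

theorem n1 : MW (((((1 <<< 275) ||| (1 <<< 272)) ||| (1 <<< 248)) ||| (1 <<< 320)) ||| (1 <<< 321)) (((((1 <<< 276) ||| (1 <<< 273)) ||| (1 <<< 224)) ||| (1 <<< 296)) ||| (1 <<< 322)) :=
  step l1 (((((1 <<< 275) ||| (1 <<< 272)) ||| (1 <<< 248)) ||| (1 <<< 320)) ||| (1 <<< 321)) (((((1 <<< 276) ||| (1 <<< 273)) ||| (1 <<< 224)) ||| (1 <<< 296)) ||| (1 <<< 322)) 318 1067993517960455041197510853084776057301352261178326384973520803911109862890320275011481043468288 238170535535998289368147279676299760003649139817135006351664933130349512668097986230968614753299670842392272246684957433082108038556267053056 [319] (by decide +kernel) (by decide +kernel) (by decide +kernel) (by decide +kernel) (by decide +kernel) (by decide +kernel) ⟨n0, trivial⟩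

end Vale.Agent.P062.PB
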