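import Vale.Agent.P062.Step
import Vale.Agent.P062.PB.N2D0
import Vale.Agent.P062.PB.N1

namespace Vale.Agent.P062.PB

open Vale.Agent.P062

noncomputable def l2 : T := .cons 319 PB.N2D0.top0 (.cons 323 PB.N2D0.top1 (.cons 319 PB.N2D0.top2 (.cons 322 PB.N2D0.top3 (.cons 319 PB.N2D0.top4 (.cons 299 PB.N2D0.top5 (.cons 319 PB.N2D0.top6 (.cons 319 PB.N2D0.top7 (.cons 319 PB.N2D0.top8 (.cons 319 PB.N2D0.top9 (.cons 319 PB.N2D0.top10 (.cons 319 PB.N2D0.top11 (.cons 319 PB.N2D0.top12 (.cons 319 PB.N2D0.top13 (.cons 319 PB.N2D0.top14 (.cons 319 PB.N2D0.top15 .nil)))))))))))))))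

theorem n2 : MW ((((1 <<< 275) ||| (1 <<< 272)) ||| (1 <<< 248)) ||| (1 <<< 320)) ((((1 <<< 276) ||| (1 <<< 273)) ||| (1 <<< 224)) ||| (1 <<< 296)) :=
  step l2 ((((1 <<< 275) ||| (1 <<< 272)) ||| (1 <<< 248)) ||| (1 <<< 320)) ((((1 <<< 276) ||| (1 <<< 273)) ||| (1 <<< 224)) ||| (1 <<< 296)) 321 8543948143683640329580086824678208458410818089426611079788166431288878903122562200091848347746304 56074482703487851242487678999037773748697135125866405446405507606194585533563814025570755767887683342009052787878361086772745106096128 [322] (by decide +kernel) (by decide +kernel) (by decide +kernel) (by decide +kernel) (by decide +kernel) (by decide +kernel) ⟨n1, trivial⟩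

end Vale.Agent.P062.PB
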