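import Vale.Agent.P062.Step
import Vale.Agent.P062.PB.N3D0
import Vale.Agent.P062.PB.N2

namespace Vale.Agent.P062.PB

open Vale.Agent.P062

noncomputable def l3 : T := .cons 296 PB.N3D0.top0 (.cons 296 PB.N3D0.top1 (.cons 296 PB.N3D0.top2 (.cons 296 PB.N3D0.top3 (.cons 296 PB.N3D0.top4 (.cons 296 PB.N3D0.top5 (.cons 296 PB.N3D0.top6 (.cons 296 PB.N3D0.top7 (.cons 296 PB.N3D0.top8 .nil))))))))

theorem n3 : MW (((1 <<< 275) ||| (1 <<< 272)) ||| (1 <<< 248)) (((1 <<< 276) ||| (1 <<< 273)) ||| (1 <<< 224)) :=
  step l3 (((1 <<< 275) ||| (1 <<< 272)) ||| (1 <<< 248)) (((1 <<< 276) ||| (1 <<< 273)) ||| (1 <<< 224)) 320 127314748520905380391777855525586135065716774604121015664758778084648831235208544136462336 423075857851704253556667357410994851602021638614099288709276231117593977786751362860311941536414125255128802949607210897899520 [296] (by decide +kernel) (by decide +kernel) (by decide +kernel) (by decide +kernel) (by decide +kernel) (by decide +kernel) ⟨n2, trivial⟩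

end Vale.Agent.P062.PB
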