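import Vale.Agent.P062.Step
import Vale.Agent.P062.PB.N4D0
import Vale.Agent.P062.PB.N3

namespace Vale.Agent.P062.PB

open Vale.Agent.P062

noncomputable def l4 : T := .cons 296 PB.N4D0.top0 (.cons 247 PB.N4D0.top1 (.cons 296 PB.N4D0.top2 (.cons 296 PB.N4D0.top3 (.cons 296 PB.N4D0.top4 (.cons 224 PB.N4D0.top5 (.cons 296 PB.N4D0.top6 (.cons 247 PB.N4D0.top7 (.cons 296 PB.N4D0.top8 (.cons 296 PB.N4D0.top9 (.cons 224 PB.N4D0.top10 (.cons 296 PB.N4D0.top11 (.cons 296 PB.N4D0.top12 (.cons 296 PB.N4D0.top13 (.cons 296 PB.N4D0.top14 (.cons 224 PB.N4D0.top15 (.cons 296 PB.N4D0.top16 .nil))))))))))))))))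

theorem n4 : MW ((1 <<< 275) ||| (1 <<< 272)) ((1 <<< 276) ||| (1 <<< 273)) :=
  step l4 ((1 <<< 275) ||| (1 <<< 272)) ((1 <<< 276) ||| (1 <<< 273)) 248 26959946667150639794667015087019630673637144422540572481103610249216 423076137763556272739607433451195129818345126381343319413816207534601721073374190549048698145598103913597245505392893098983424 [224] (by decide +kernel) (by decide +kernel) (by decide +kernel) (by decide +kernel) (by decide +kernel) (by decide +kernel) ⟨n3, trivial⟩

end Vale.Agent.P062.PB
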