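import Vale.Agent.P062.Step
import Vale.Agent.P062.PB.N5D0
import Vale.Agent.P062.PB.N5D1
import Vale.Agent.P062.PB.N5D2
import Vale.Agent.P062.PB.N5D3
import Vale.Agent.P062.PB.N5D4
import Vale.Agent.P062.PB.N5D5
import Vale.Agent.P062.PB.N5D6
import Vale.Agent.P062.PB.N5D7
import Vale.Agent.P062.PB.N5D8
import Vale.Agent.P062.PB.N5D9
import Vale.Agent.P062.PB.N5D10
import Vale.Agent.P062.PB.N5D11
import Vale.Agent.P062.PB.N5D12
import Vale.Agent.P062.PB.N5D13
import Vale.Agent.P062.PB.N5D14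
import Vale.Agent.P062.PB.N5D15
import Vale.Agent.P062.PB.N5D16
import Vale.Agent.P062.PB.N4

namespace Vale.Agent.P062.PB

open Vale.Agent.P062

noncomputable def l5 : T := .cons 248 PB.N5D0.top0 (.cons 248 PB.N5D0.top1 (.cons 299 PB.N5D1.top0 (.cons 251 PB.N5D1.top1 (.cons 296 PB.N5D2.top0 (.cons 248 PB.N5D2.top1 (.cons 273 PB.N5D3.top0 (.cons 273 PB.N5D3.top1 (.cons 273 PB.N5D4.top0 (.cons 296 PB.N5D4.top1 (.cons 248 PB.N5D5.top0 (.cons 248 PB.N5D5.top1 (.cons 274 PB.N5D6.top0 (.cons 248 PB.N5D6.top1 (.cons 274 PB.N5D7.top0 (.cons 296 PB.N5D7.top1 (.cons 248 PB.N5D8.top0 (.cons 248 PB.N5D8.top1 (.cons 251 PB.N5D9.top0 (.cons 296 PB.N5D9.top1 (.cons 248 PB.N5D10.top0 (.cons 251 PB.N5D10.top1 (.cons 296 PB.N5D11.top0 (.cons 296 PB.N5D11.top1 (.cons 296 PB.N5D12.top0 (.cons 248 PB.N5D12.top1 (.cons 251 PB.N5D12.top2 (.cons 248 PB.N5D13.top0 (.cons 248 PB.N5D13.top1 (.cons 248 PB.N5D14.top0 (.cons 248 PB.N5D14.top1 (.cons 248 PB.N5D15.top0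 (.cons 248 PB.N5D15.top1 (.cons 248 PB.N5D15.top2 (.cons 248 PB.N5D16.top0 (.cons 248 PB.N5D16.top1 (.cons 248 PB.N5D16.top2 .nil))))))))))))))))))))))))))))))))))))

theorem n5 : MW (1 <<< 275) (1 <<< 276) :=
  step l5 (1 <<< 275) (1 <<< 276) 272 15177100720513508366558296147058741458143803430094840009779784451085189728165691392 83756827760332350584890654905170991293342048655450099971808077113349608741575306476432700194737354120899017943743642329510298397966336 [273] (by decide +kernel) (by decide +kernel) (by decide +kernel) (by decide +kernel) (by decide +kernel) (by decide +kernel) ⟨n4, trivial⟩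

end Vale.Agent.P062.PB
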